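import Vale.Agent.P235.Defs
import Mathlib.MeasureTheory.Integral.Bochner.Basic
import Mathlib.MeasureTheory.Integral.Bochner.Set

/-! A finite random cut gives an embedding into `L₁`. -/

namespace Vale.Agent.P235.H263

open MeasureTheory

section

variable {Ω : Type} [Fintype Ω] [MeasurableSpace Ω] [DiscreteMeasurableSpace Ω]

/-- the measure on a finite set with the given weights -/
noncomputable def wm (P : Ω → ℝ) : Measure Ω :=
  ∑ σ : Ω, ENNReal.ofReal (P σ) • Measure.dirac σ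

omit [DiscreteMeasurableSpace Ω] in
theorem wm_finite (P : Ω → ℝ) : IsFiniteMeasure (wm P) := by
  refine ⟨?_⟩
  unfold wm
  rw [Measure.finsetSum_apply]
  refine ENNReal.sum_lt_top.mpr fun σ _ => ?_
  simp [Measure.smul_apply]

theorem integral_wm {P : Ω → ℝ} (hP : ∀ σ, 0 ≤ P σ) (f : Ω → ℝ) :
    ∫ σ, f σ ∂(wm P) = ∑ σ, P σ * f σ := by
  unfold wm
  rw [integral_finsetSum_measure]
  · refine Finset.sum_congr rfl fun σ _ => ?_
    rw [integral_smul_measure, integral_dirac, ENNReal.toReal_ofReal (hP σ), smul_eq_mul]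
  · intro σ _
    refine Integrable.smul_measure ?_ ENNReal.ofReal_ne_top
    exact integrable_dirac (by simp)

theorem memLp_wm (P : Ω → ℝ) (f : Ω → ℝ) : MemLp f 1 (wm P) := by
  have := wm_finite P
  obtain ⟨C, hC⟩ := (Set.finite_range fun σ => ‖f σ‖).bddAbove
  refine MemLp.of_bound (C := C) ?_ ?_
  · exact (measurable_of_finite f).aestronglyMeasurable
  · exact Filter.Eventually.of_forall fun σ => hC ⟨σ, rfl⟩

theorem norm_wm {P : Ω → ℝ} (hP : ∀ σ, 0 ≤ P σ) (f g : Ω → ℝ) :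
    ‖(memLp_wm P f).toLp - (memLp_wm P g).toLp‖ = ∑ σ, P σ * |f σ - g σ| := by
  rw [← MemLp.toLp_sub, L1.norm_eq_integral_norm]
  have h3 := ((memLp_wm P f).sub (memLp_wm P g)).coeFn_toLp
  rw [integral_congr_ae (h3.mono fun σ hσ => by rw [hσ]), integral_wm hP]
  rfl

end

/-- **Embedding from a weighted family of functions.** -/
theorem embeds_of_family {Ω : Type} [Fintype Ω] {V : Type} {d : V → V → ℝ} {C : ℝ} {P : Ω → ℝ}
    (hP : ∀ σ, 0 ≤ P σ)
    (f : Ω → V → ℝ) (h1 : ∀ x y, d x y ≤ ∑ σ, P σ * |f σ x - f σ y|)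
    (h2 : ∀ x y, ∑ σ, P σ * |f σ x - f σ y| ≤ C * d x y) : EmbedsL1 d C := by
  let : MeasurableSpace Ω := ⊤
  have : DiscreteMeasurableSpace Ω := ⟨fun _ => trivial⟩
  exact ⟨Ω, ⊤, wm P, fun x => (memLp_wm P fun σ => f σ x).toLp, fun x y => by
    rw [norm_wm hP]; exact ⟨h1 x y, h2 x y⟩⟩

/-- **Embedding from a random cut**: `c d ≤ ρ ≤ C d` for `ρ(x,y) = P(σ x ≠ σ y)`, `c > 0`. -/
theorem embeds_of_cuts {Ω : Type} [Fintype Ω] {V : Type} {d : V → V → ℝ} {c C : ℝ} (hc : 0 < c)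
    {P : Ω → ℝ} (hP : ∀ σ, 0 ≤ P σ) (X : Ω → V → Bool)
    (h1 : ∀ x y, c * d x y ≤ ∑ σ, P σ * (if X σ x = X σ y then 0 else 1))
    (h2 : ∀ x y, ∑ σ, P σ * (if X σ x = X σ y then 0 else 1) ≤ C * d x y) :
    EmbedsL1 d (C / c) := by
  have key : ∀ x y, ∑ σ, P σ / c * |(if X σ x = true then (1 : ℝ) else 0)
      - (if X σ y = true then (1 : ℝ) else 0)|
      = (∑ σ, P σ * (if X σ x = X σ y then 0 else 1)) / c := by
    intro x y
    rw [Finset.sum_div]
    refine Finset.sum_congr rfl fun σ _ => ?_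
    cases X σ x <;> cases X σ y <;> simp
  refine embeds_of_family (P := fun σ => P σ / c) (fun σ => div_nonneg (hP σ) hc.le)
    (fun σ x => if X σ x = true then (1 : ℝ) else 0) ?_ ?_
  · intro x y
    rw [key, le_div_iff₀ hc, mul_comm]
    exact h1 x y
  · intro x y
    rw [key, div_mul_eq_mul_div]
    exact div_le_div_of_nonneg_right (h2 x y) hc.le

end Vale.Agent.P235.H263
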