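import Vale.Agent.P235.H263.Path
import Vale.Agent.P235.H263.CutEmb

/-! The combinatorial target: random cuts for metrics in elimination form, and how it gives the
bound for graphs of treewidth at most `k`. -/

namespace Vale.Agent.P235.H263

open Finset

/-- a metric on `Fin n` with (SEP) for the elimination form `A` -/
structure IsSep {n : ℕ} (A : Fin n → Finset (Fin n)) (d : Fin n → Fin n → ℝ) : Prop where
  self : ∀ i, d i i = 0
  pos : ∀ i j, i ≠ j → 0 < d i j
  symm : ∀ i j, d i j = d j i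
  tri : ∀ i j l, d i l ≤ d i j + d j l
  sep : ∀ b p q, Sub A b p → ¬ Sub A b q → ∃ a ∈ A b, d p q = d p a + d a q

theorem IsSep.nonneg {n : ℕ} {A : Fin n → Finset (Fin n)} {d : Fin n → Fin n → ℝ}
    (h : IsSep A d) (i j : Fin n) : 0 ≤ d i j := by
  rcases eq_or_ne i j with e | e
  · rw [e, h.self]
  · exact (h.pos i j e).le

/-- **Target** for `k`: a random cut which is nonexpanding on the pairs in a bag and has at least
`c d` on all pairs. -/
def Target (k : ℕ) (c : ℝ) : Prop :=
  ∀ (n : ℕ) (A : Fin n → Finset (Fin n)) (d : Fin n → Fin n → ℝ), 0 < n → IsElim k A → IsSep A d →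
    ∃ (Ω : Type) (_ : Fintype Ω) (P : Ω → ℝ) (X : Ω → Fin n → Bool), (∀ σ, 0 ≤ P σ) ∧
      (∀ j, ∀ i ∈ A j, ∑ σ, P σ * (if X σ i = X σ j then 0 else 1) ≤ d i j) ∧
      ∀ i j, c * d i j ≤ ∑ σ, P σ * (if X σ i = X σ j then 0 else 1)

theorem distortion_of_target {k : ℕ} {c : ℝ} (hc0 : 0 < c) (h : Target k c) {V : Type} [Finite V]
    {G : SimpleGraph V} (hc : G.Connected) (hG : TreewidthLE G k) : DistortionLE G (1 / c) := by
  intro ℓ hℓ
  obtain ⟨n, e, A, hn, hA, hadj⟩ := exists_elim hc hG
  obtain ⟨Ω, _, P, X, h0, h1, h2⟩ := h n A (fun i j => pathDist G ℓ (e i) (e j)) hn hA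
    ⟨fun i => pd_self hc hℓ _, fun i j hij => pd_pos hc hℓ (fun h => hij (e.injective h)),
      fun i j => pd_symm hc hℓ _ _, fun i j l => pd_tri hc hℓ _ _ _,
      fun b p q hp hq => hA.sep hadj hc hℓ hp hq⟩
  have h3 : ∀ i j, ∑ σ, P σ * (if X σ i = X σ j then 0 else 1) ≤
      1 * pathDist G ℓ (e i) (e j) := by
    refine IsElim.dominate (A := A) hadj hc hℓ zero_le_one ?_ ?_ ?_ ?_
    · intro i
      simp
    · intro i j
      refine sum_congr rfl fun σ _ => ?_
      by_cases h : X σ i = X σ j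
      · rw [if_pos h, if_pos h.symm]
      · rw [if_neg h, if_neg (fun h' => h h'.symm)]
    · intro i j l
      rw [← sum_add_distrib]
      refine sum_le_sum fun σ _ => ?_
      rw [← mul_add]
      refine mul_le_mul_of_nonneg_left ?_ (h0 σ)
      cases X σ i <;> cases X σ j <;> cases X σ l <;> simp
    · intro j i hi
      rw [one_mul]
      exact h1 j i hi
  refine embeds_of_cuts (Ω := Ω) hc0 h0 (fun σ x => X σ (e.symm x)) ?_ ?_
  · intro x y
    have := h2 (e.symm x) (e.symm y)
    rw [Equiv.apply_symm_apply, Equiv.apply_symm_apply] at this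
    exact this
  · intro x y
    have := h3 (e.symm x) (e.symm y)
    rw [Equiv.apply_symm_apply, Equiv.apply_symm_apply] at this
    exact this

/-- the final statement from the targets -/
theorem treewidth_of_targets (h : ∀ k, ∃ c : ℝ, 0 < c ∧ Target k c) (k : ℕ) :
    ∃ C : ℝ, ∀ (V : Type) [Finite V] (G : SimpleGraph V), G.Connected → TreewidthLE G k →
      DistortionLE G C := by
  obtain ⟨c, hc0, hc⟩ := h k
  exact ⟨1 / c, fun V _ G hG hk => distortion_of_target hc0 hc hG hk⟩

end Vale.Agent.P235.H263
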