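import Vale.Agent.P235.Comp.Defs

/-! Treewidth at most `k` gives an elimination order: a bijection with `Fin n` and, for every vertex,
the set of its at most `k` earlier neighbours in a chordal completion. -/

namespace Vale.Agent.P235.H263

open Finset

section state

variable {V : Type} [DecidableEq V]

/-- a partial elimination order of the set `D`, with the cliques `bags` -/
structure Pre (k : ℕ) (bags : Set (Finset V)) (D : Finset V) (rk : V → ℕ) (A : V → Finset V) :
    Prop where
  lt : ∀ x ∈ D, rk x < D.card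
  inj : ∀ x ∈ D, ∀ y ∈ D, rk x = rk y → x = y
  sub : ∀ x ∈ D, A x ⊆ D
  low : ∀ x ∈ D, ∀ y ∈ A x, rk y < rk x
  card : ∀ x ∈ D, (A x).card ≤ k
  bag : ∀ b ∈ bags, b ⊆ D ∧ ∀ x ∈ b, ∀ y ∈ b, rk x < rk y → x ∈ A y
  cov : ∀ x ∈ D, ∃ b ∈ bags, insert x (A x) ⊆ b

theorem Pre.step {k : ℕ} {bags : Set (Finset V)} {D : Finset V} {rk : V → ℕ} {A : V → Finset V}
    (h : Pre k bags D rk A) {z : V} (hz : z ∉ D) {N b : Finset V} (hb : b ∈ bags) (hN : N ⊆ b)
    (hc : N.card ≤ k) :
    Pre k (insert (insert z N) bags) (insert z D) (Function.update rk z D.card)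
      (Function.update A z N) := by
  have hbD := (h.bag b hb).1
  have hne : ∀ x ∈ D, x ≠ z := fun x hx e => hz (e ▸ hx)
  have hND : N ⊆ D := hN.trans hbD
  have hrk : ∀ x ∈ D, Function.update rk z D.card x = rk x := fun x hx =>
    Function.update_of_ne (hne x hx) _ _
  have hA : ∀ x ∈ D, Function.update A z N x = A x := fun x hx =>
    Function.update_of_ne (hne x hx) _ _
  have hrz : Function.update rk z D.card z = D.card := Function.update_self _ _ _
  have hAz : Function.update A z N z = N := Function.update_self _ _ _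
  constructor
  · intro x hx
    rw [card_insert_of_notMem hz]
    rcases mem_insert.mp hx with rfl | hx
    · rw [hrz]; omega
    · rw [hrk x hx]; have := h.lt x hx; omega
  · intro x hx y hy hxy
    rcases mem_insert.mp hx with ex | hx
    · rcases mem_insert.mp hy with ey | hy
      · rw [ex, ey]
      · rw [ex, hrz, hrk y hy] at hxy
        have := h.lt y hy
        omega
    · rcases mem_insert.mp hy with ey | hy
      · rw [ey, hrz, hrk x hx] at hxy
        have := h.lt x hx
        omega
      · rw [hrk x hx, hrk y hy] at hxy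
        exact h.inj x hx y hy hxy
  · intro x hx
    rcases mem_insert.mp hx with rfl | hx
    · rw [hAz]; exact hND.trans (subset_insert _ _)
    · rw [hA x hx]; exact (h.sub x hx).trans (subset_insert _ _)
  · intro x hx y hy
    rcases mem_insert.mp hx with rfl | hx
    · rw [hAz] at hy
      rw [hrz, hrk y (hND hy)]
      exact h.lt y (hND hy)
    · rw [hA x hx] at hy
      rw [hrk x hx, hrk y (h.sub x hx hy)]
      exact h.low x hx y hy
  · intro x hx
    rcases mem_insert.mp hx with rfl | hx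
    · rw [hAz]; exact hc
    · rw [hA x hx]; exact h.card x hx
  · intro c hcb
    rcases hcb with rfl | hcb
    · refine ⟨insert_subset_insert z hND, ?_⟩
      intro x hx y hy hxy
      rcases mem_insert.mp hy with ey | hy
      · rcases mem_insert.mp hx with ex | hx
        · rw [ex, ey] at hxy
          exact absurd hxy (lt_irrefl _)
        · rw [ey, hAz]; exact hx
      · rcases mem_insert.mp hx with ex | hx
        · rw [ex, hrz, hrk y (hND hy)] at hxy
          have := h.lt y (hND hy)
          omega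
        · rw [hrk x (hND hx), hrk y (hND hy)] at hxy
          rw [hA y (hND hy)]
          exact (h.bag b hb).2 x (hN hx) y (hN hy) hxy
    · obtain ⟨h1, h2⟩ := h.bag c hcb
      refine ⟨h1.trans (subset_insert _ _), ?_⟩
      intro x hx y hy hxy
      rw [hrk x (h1 hx), hrk y (h1 hy)] at hxy
      rw [hA y (h1 hy)]
      exact h2 x hx y hy hxy
  · intro x hx
    rcases mem_insert.mp hx with rfl | hx
    · exact ⟨insert x N, Or.inl rfl, by rw [hAz]⟩
    · obtain ⟨c, hc1, hc2⟩ := h.cov x hx
      exact ⟨c, Or.inr hc1, by rw [hA x hx]; exact hc2⟩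

theorem Pre.many {k : ℕ} {N b : Finset V} (M : Finset V) : ∀ {bags : Set (Finset V)} {D : Finset V}
    {rk : V → ℕ} {A : V → Finset V}, Pre k bags D rk A → b ∈ bags → N ⊆ b → Disjoint M D →
    (N ∪ M).card ≤ k + 1 →
    ∃ (bags' : Set (Finset V)) (rk' : V → ℕ) (A' : V → Finset V), Pre k bags' (D ∪ M) rk' A' ∧
      bags ⊆ bags' ∧ ∃ c ∈ bags', N ∪ M ⊆ c := by
  induction M using Finset.induction_on with
  | empty =>
    intro bags D rk A h hb hN _ _
    exact ⟨bags, rk, A, by simpa using h, subset_rfl, b, hb, by simpa using hN⟩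
  | insert z M hzM ih =>
    intro bags D rk A h hb hN hd hcard
    have hd' : Disjoint M D := hd.mono_left (subset_insert _ _)
    have hzD : z ∉ D := fun hz => (Finset.disjoint_left.mp hd) (mem_insert_self z M) hz
    have hND : N ⊆ D := hN.trans (h.bag b hb).1
    have hzN : z ∉ N ∪ M := by
      rw [mem_union, not_or]
      exact ⟨fun hz => hzD (hND hz), hzM⟩
    have e : N ∪ insert z M = insert z (N ∪ M) := by
      rw [union_insert]
    rw [e, card_insert_of_notMem hzN] at hcard
    obtain ⟨bags', rk', A', h', hsub, c, hc, hNc⟩ := ih h hb hN hd' (by omega)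
    have hzD' : z ∉ D ∪ M := by
      rw [mem_union, not_or]
      exact ⟨hzD, hzM⟩
    have h3 := h'.step hzD' hc hNc (by omega)
    refine ⟨insert (insert z (N ∪ M)) bags', Function.update rk' z (D ∪ M).card,
      Function.update A' z (N ∪ M), ?_, hsub.trans (Set.subset_insert _ _), insert z (N ∪ M),
      Set.mem_insert _ _, ?_⟩
    · rw [union_insert]; exact h3
    · rw [e]

end state

section tree

variable {V : Type} [DecidableEq V] {ι : Type}

omit [DecidableEq V] in
theorem both {H : SimpleGraph ι} {B : ι → Finset V} (hH : H.IsTree)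
    (hI : ∀ v, (H.induce {t | v ∈ B t}).Preconnected) {r : ι} {S : Finset ι}
    (hS : ∀ a ∈ S, ∃ p : H.Walk r a, ∀ x ∈ p.support, x ∈ S) {s t : ι} (hs : s ∈ S) (ht : t ∉ S)
    (hst : H.Adj s t) {v : V} (hv : v ∈ B t) {a : ι} (ha : a ∈ S) (hva : v ∈ B a) : v ∈ B s := by
  have hbridge : ∀ p : H.Walk t s, s(t, s) ∈ p.edges := by
    rw [← SimpleGraph.isBridge_iff_forall_walk_mem_edges]
    exact SimpleGraph.isAcyclic_iff_forall_adj_isBridge.mp hH.isAcyclic hst.symm
  set comp : Set ι := {x | ∃ p : H.Walk t x, s(t, s) ∉ p.edges} with hcomp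
  have htcomp : t ∈ comp := ⟨SimpleGraph.Walk.nil, by simp⟩
  have hscomp : s ∉ comp := by
    rintro ⟨p, hp⟩
    exact hp (hbridge p)
  have hcross : ∀ u u', H.Adj u u' → u ∈ comp → u' ∉ comp → u = t ∧ u' = s := by
    rintro u u' huu' ⟨p, hp⟩ hu'
    by_contra hcon
    apply hu'
    refine ⟨p.concat huu', ?_⟩
    rw [SimpleGraph.Walk.edges_concat, List.concat_eq_append, List.mem_append, not_or]
    refine ⟨hp, ?_⟩
    rw [List.mem_singleton]
    intro he
    rcases Sym2.eq_iff.mp he with ⟨e1, e2⟩ | ⟨e1, e2⟩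
    · exact hcon ⟨e1.symm, e2.symm⟩
    · rw [e2] at hscomp
      exact hscomp ⟨p, hp⟩
  have hAcomp : a ∉ comp := by
    rintro ⟨p, hp⟩
    obtain ⟨pa, hpa⟩ := hS a ha
    obtain ⟨ps, hps⟩ := hS s hs
    have h5 : s(t, s) ∉ (pa.reverse.append ps).edges := by
      intro he
      have h6 := SimpleGraph.Walk.fst_mem_support_of_mem_edges _ he
      rw [SimpleGraph.Walk.mem_support_append_iff, SimpleGraph.Walk.support_reverse,
        List.mem_reverse] at h6
      rcases h6 with h6 | h6
      · exact ht (hpa _ h6)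
      · exact ht (hps _ h6)
    have h7 := hbridge (p.append (pa.reverse.append ps))
    rw [SimpleGraph.Walk.edges_append, List.mem_append] at h7
    rcases h7 with h7 | h7
    · exact hp h7
    · exact h5 h7
  obtain ⟨p⟩ := hI v ⟨t, hv⟩ ⟨a, hva⟩
  obtain ⟨dd, _, hd1, hd2⟩ := p.exists_boundary_dart {y | (y : ι) ∈ comp} htcomp hAcomp
  have h5 : (dd.fst : ι) = t ∧ (dd.snd : ι) = s := hcross _ _ dd.adj hd1 hd2
  have h6 : v ∈ B (dd.snd : ι) := dd.snd.2
  rw [h5.2] at h6
  exact h6

/-- one step along a tree edge -/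
theorem grow_step [DecidableEq ι] {k : ℕ} {H : SimpleGraph ι} {B : ι → Finset V} (hH : H.IsTree)
    (hI : ∀ v, (H.induce {t | v ∈ B t}).Preconnected) (hB : ∀ t, (B t).card ≤ k + 1)
    {r : ι} {S : Finset ι}
    (hS : ∀ a ∈ S, ∃ p : H.Walk r a, ∀ x ∈ p.support, x ∈ S) {s t : ι} (hs : s ∈ S) (ht : t ∉ S)
    (hst : H.Adj s t) {bags : Set (Finset V)} {rk : V → ℕ} {A : V → Finset V}
    (h : Pre k bags (S.biUnion B) rk A) (hb : ∀ a ∈ S, ∃ c ∈ bags, B a ⊆ c) :
    ∃ (bags' : Set (Finset V)) (rk' : V → ℕ) (A' : V → Finset V),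
      Pre k bags' ((insert t S).biUnion B) rk' A' ∧ ∀ a ∈ insert t S, ∃ c ∈ bags', B a ⊆ c := by
  obtain ⟨c, hc, hcB⟩ := hb s hs
  have hBt : (B s ∩ B t) ∪ (B t \ B s) = B t := by
    ext x
    simp only [Finset.mem_union, Finset.mem_inter, Finset.mem_sdiff]
    tauto
  have hd : Disjoint (B t \ B s) (S.biUnion B) := by
    rw [Finset.disjoint_left]
    intro x hx hx'
    obtain ⟨a, ha, hxa⟩ := mem_biUnion.mp hx'
    exact (mem_sdiff.mp hx).2 (both hH hI hS hs ht hst (mem_sdiff.mp hx).1 ha hxa)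
  obtain ⟨bags', rk', A', h1, h2, c', hc', h3⟩ := h.many (B t \ B s) hc
    ((inter_subset_left : B s ∩ B t ⊆ B s).trans hcB) hd (by rw [hBt]; exact hB t)
  refine ⟨bags', rk', A', ?_, ?_⟩
  · have e : (insert t S).biUnion B = S.biUnion B ∪ (B t \ B s) := by
      ext x
      rw [biUnion_insert, mem_union, mem_union, mem_sdiff]
      constructor
      · rintro (hx | hx)
        · by_cases hxs : x ∈ B s
          · exact Or.inl (mem_biUnion.mpr ⟨s, hs, hxs⟩)
          · exact Or.inr ⟨hx, hxs⟩
        · exact Or.inl hx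
      · rintro (hx | hx)
        · exact Or.inr hx
        · exact Or.inl hx.1
    rw [e]
    exact h1
  · intro a ha
    rcases mem_insert.mp ha with rfl | ha
    · exact ⟨c', hc', by rw [hBt] at h3; exact h3⟩
    · obtain ⟨d, hd1, hd2⟩ := hb a ha
      exact ⟨d, h2 hd1, hd2⟩

theorem grow_all [DecidableEq ι] [Fintype ι] {k : ℕ} {H : SimpleGraph ι} {B : ι → Finset V}
    (hH : H.IsTree) (hI : ∀ v, (H.induce {t | v ∈ B t}).Preconnected)
    (hB : ∀ t, (B t).card ≤ k + 1) (r : ι) :
    ∀ m : ℕ, m + 1 ≤ Fintype.card ι → ∃ (S : Finset ι), S.card = m + 1 ∧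
      (∀ a ∈ S, ∃ p : H.Walk r a, ∀ x ∈ p.support, x ∈ S) ∧
      ∃ (bags : Set (Finset V)) (rk : V → ℕ) (A : V → Finset V),
        Pre k bags (S.biUnion B) rk A ∧ ∀ a ∈ S, ∃ c ∈ bags, B a ⊆ c := by
  intro m
  induction m with
  | zero =>
    intro _
    have h0 : Pre k {(∅ : Finset V)} ∅ (fun _ => 0) (fun _ => ∅) := by
      constructor
      · intro x hx; simp at hx
      · intro x hx; simp at hx
      · intro x hx; simp at hx
      · intro x hx; simp at hx
      · intro x hx; simp at hx
      · intro b hb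
        rw [Set.mem_singleton_iff] at hb
        subst hb
        exact ⟨subset_rfl, fun x hx => by simp at hx⟩
      · intro x hx; simp at hx
    obtain ⟨bags', rk', A', h1, h2, c', hc', h3⟩ := h0.many (N := ∅) (b := ∅) (B r)
      (Set.mem_singleton _) subset_rfl (by simp) (by simpa using hB r)
    refine ⟨{r}, by simp, ?_, bags', rk', A', by simpa using h1, ?_⟩
    · intro a ha
      rw [mem_singleton] at ha
      subst ha
      exact ⟨SimpleGraph.Walk.nil, by simp⟩
    · intro a ha
      rw [mem_singleton] at ha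
      subst ha
      exact ⟨c', hc', by simpa using h3⟩
  | succ m ih =>
    intro hm
    obtain ⟨S, hcard, hS, bags, rk, A, h, hb⟩ := ih (by omega)
    have hne : ∃ t, t ∉ S := by
      by_contra hcon
      have hcon : ∀ t, t ∈ S := fun t => by
        by_contra h'
        exact hcon ⟨t, h'⟩
      have : S = univ := eq_univ_iff_forall.mpr hcon
      rw [this, card_univ] at hcard
      omega
    obtain ⟨t0, ht0⟩ := hne
    have hrS : r ∈ S := by
      have : S.Nonempty := by
        rw [← card_pos]; omega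
      obtain ⟨a, ha⟩ := this
      obtain ⟨p, hp⟩ := hS a ha
      exact hp r p.start_mem_support
    obtain ⟨w⟩ := hH.connected r t0
    obtain ⟨dd, _, hd1, hd2⟩ := w.exists_boundary_dart {x | x ∈ S} hrS ht0
    obtain ⟨bags', rk', A', h', hb'⟩ := grow_step hH hI hB hS hd1 hd2 dd.adj h hb
    refine ⟨insert dd.snd S, ?_, ?_, bags', rk', A', h', hb'⟩
    · rw [card_insert_of_notMem hd2, hcard]
    · intro a ha
      rcases mem_insert.mp ha with rfl | ha
      · obtain ⟨p, hp⟩ := hS dd.fst hd1
        refine ⟨p.concat dd.adj, ?_⟩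
        intro x hx
        rw [SimpleGraph.Walk.support_concat, List.mem_append, List.mem_singleton] at hx
        rcases hx with hx | rfl
        · exact mem_insert_of_mem (hp x hx)
        · exact mem_insert_self _ _
      · obtain ⟨p, hp⟩ := hS a ha
        exact ⟨p, fun x hx => mem_insert_of_mem (hp x hx)⟩

/-- **Elimination order**, in rank form. -/
theorem exists_rank [Fintype V] {G : SimpleGraph V} {k : ℕ} (hG : TreewidthLE G k) [Nonempty V] :
    ∃ (rk : V → ℕ) (A : V → Finset V),
      (∀ x, rk x < Fintype.card V) ∧ Function.Injective rk ∧ (∀ x, ∀ y ∈ A x, rk y < rk x) ∧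
      (∀ x, (A x).card ≤ k) ∧ (∀ x, ∀ a ∈ A x, ∀ b ∈ A x, rk a < rk b → a ∈ A b) ∧
      (∀ x y, G.Adj x y → rk x < rk y → x ∈ A y) := by
  classical
  obtain ⟨ι, hfin, H, B, hH, hV, hE, hI, hB⟩ := hG
  have := Fintype.ofFinite ι
  obtain ⟨r, -⟩ := hV (Classical.arbitrary V)
  have hpos : 1 ≤ Fintype.card ι := Fintype.card_pos_iff.mpr ⟨r⟩
  obtain ⟨S, hcard, hS, bags, rk, A, h, hb⟩ := grow_all hH hI hB r (Fintype.card ι - 1) (by omega)
  have hSu : S = univ := by
    rw [← Finset.card_eq_iff_eq_univ]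
    omega
  subst hSu
  have hDu : (univ : Finset ι).biUnion B = univ := by
    rw [eq_univ_iff_forall]
    intro v
    obtain ⟨t, ht⟩ := hV v
    exact mem_biUnion.mpr ⟨t, mem_univ t, ht⟩
  rw [hDu] at h
  refine ⟨rk, A, fun x => by simpa using h.lt x (mem_univ x), ?_, fun x => h.low x (mem_univ x),
    fun x => h.card x (mem_univ x), ?_, ?_⟩
  · intro x y hxy
    exact h.inj x (mem_univ x) y (mem_univ y) hxy
  · intro x a ha b hb' hab
    obtain ⟨c, hc, hc2⟩ := h.cov x (mem_univ x)
    exact (h.bag c hc).2 a (hc2 (mem_insert_of_mem ha)) b (hc2 (mem_insert_of_mem hb')) hab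
  · intro x y hxy hlt
    obtain ⟨t, h1, h2⟩ := hE x y hxy
    obtain ⟨c, hc, hc2⟩ := hb t (mem_univ t)
    exact (h.bag c hc).2 x (hc2 h1) y (hc2 h2) hlt

end tree

end Vale.Agent.P235.H263
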