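import Vale.Agent.P235.H263.Elim

/-! The elimination form on `Fin n`, parents, subtrees and separation. -/

namespace Vale.Agent.P235.H263

open Finset

/-- Elimination form: `A i` is the set of earlier neighbours of `i` in a chordal graph. -/
structure IsElim {n : ℕ} (k : ℕ) (A : Fin n → Finset (Fin n)) : Prop where
  lt : ∀ i, ∀ a ∈ A i, a < i
  card : ∀ i, (A i).card ≤ k
  clique : ∀ i, ∀ a ∈ A i, ∀ b ∈ A i, a < b → a ∈ A b
  nonempty : ∀ i : Fin n, 0 < (i : ℕ) → (A i).Nonempty

/-- the parent: the latest vertex of `A i` (and `i` itself if `A i` is empty) -/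
noncomputable def par {n : ℕ} (A : Fin n → Finset (Fin n)) (i : Fin n) : Fin n :=
  if h : (A i).Nonempty then (A i).max' h else i

/-- `i` lies in the subtree of `b` -/
def Sub {n : ℕ} (A : Fin n → Finset (Fin n)) (b i : Fin n) : Prop := ∃ m : ℕ, (par A)^[m] i = b

section

variable {n k : ℕ} {A : Fin n → Finset (Fin n)}

theorem par_mem {i : Fin n} (h : (A i).Nonempty) : par A i ∈ A i := by
  unfold par
  rw [dif_pos h]
  exact max'_mem _ _

theorem le_par {i a : Fin n} (ha : a ∈ A i) : a ≤ par A i := by
  unfold par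
  rw [dif_pos ⟨a, ha⟩]
  exact le_max' _ _ ha

theorem par_of_empty {i : Fin n} (h : ¬ (A i).Nonempty) : par A i = i := by
  unfold par
  rw [dif_neg h]

theorem IsElim.par_lt (hA : IsElim k A) {i : Fin n} (h : 0 < (i : ℕ)) : par A i < i :=
  hA.lt i _ (par_mem (hA.nonempty i h))

theorem IsElim.par_le (hA : IsElim k A) (i : Fin n) : par A i ≤ i := by
  by_cases h : (A i).Nonempty
  · exact (hA.lt i _ (par_mem h)).le
  · rw [par_of_empty h]

/-- the adhesion is contained in the bag of the parent -/
theorem IsElim.sub_par (hA : IsElim k A) (i : Fin n) : A i ⊆ insert (par A i) (A (par A i)) := by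
  intro a ha
  rw [mem_insert]
  rcases (le_par ha).eq_or_lt with h | h
  · exact Or.inl h
  · exact Or.inr (hA.clique i a ha _ (par_mem ⟨a, ha⟩) h)

theorem Sub.refl (b : Fin n) : Sub A b b := ⟨0, rfl⟩

theorem Sub.step {b i : Fin n} (h : Sub A b (par A i)) : Sub A b i := by
  obtain ⟨m, hm⟩ := h
  exact ⟨m + 1, by rw [Function.iterate_succ_apply]; exact hm⟩

theorem Sub.cases {b i : Fin n} (h : Sub A b i) : i = b ∨ Sub A b (par A i) := by
  obtain ⟨m, hm⟩ := h
  cases m with
  | zero => exact Or.inl hm
  | succ m => exact Or.inr ⟨m, by rw [← hm, Function.iterate_succ_apply]⟩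

theorem Sub.trans {a b c : Fin n} (h : Sub A a b) (h' : Sub A b c) : Sub A a c := by
  obtain ⟨m, hm⟩ := h
  obtain ⟨m', hm'⟩ := h'
  exact ⟨m + m', by rw [Function.iterate_add_apply, hm', hm]⟩

theorem IsElim.sub_le (hA : IsElim k A) {b i : Fin n} (h : Sub A b i) : b ≤ i := by
  obtain ⟨m, hm⟩ := h
  induction m generalizing i with
  | zero => exact hm.symm.le
  | succ m ih =>
    rw [Function.iterate_succ_apply] at hm
    exact (ih hm).trans (hA.par_le i)

/-- the vertices of `A i` are ancestors of `i` -/
theorem IsElim.anc (hA : IsElim k A) : ∀ (m : ℕ) (i : Fin n), (i : ℕ) ≤ m → ∀ a ∈ A i,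
    Sub A a i := by
  intro m
  induction m with
  | zero =>
    intro i hi a ha
    have := hA.lt i a ha
    rw [Fin.lt_def] at this
    omega
  | succ m ih =>
    intro i hi a ha
    have h1 := hA.sub_par i ha
    rw [mem_insert] at h1
    rcases h1 with h1 | h1
    · exact ⟨1, by rw [Function.iterate_one]; exact h1.symm⟩
    · have h2 := hA.lt i _ (par_mem ⟨a, ha⟩)
      rw [Fin.lt_def] at h2
      exact (ih (par A i) (by omega) a h1).step

theorem IsElim.mem_sub (hA : IsElim k A) {i a : Fin n} (ha : a ∈ A i) : Sub A a i :=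
  hA.anc i i le_rfl a ha

/-- the adhesions inside the subtree of `b` use only the subtree and `A b` -/
theorem IsElim.adh_sub (hA : IsElim k A) {b : Fin n} : ∀ (m : ℕ) (i : Fin n), (i : ℕ) ≤ m →
    Sub A b i → ∀ a ∈ A i, Sub A b a ∨ a ∈ A b := by
  intro m
  induction m with
  | zero =>
    intro i hi _ a ha
    have := hA.lt i a ha
    rw [Fin.lt_def] at this
    omega
  | succ m ih =>
    intro i hi hb a ha
    rcases hb.cases with rfl | hb
    · exact Or.inr ha
    · have h1 := hA.sub_par i ha
      rw [mem_insert] at h1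
      rcases h1 with h1 | h1
      · exact Or.inl (by rw [h1]; exact hb)
      · have h2 := hA.lt i _ (par_mem ⟨a, ha⟩)
        rw [Fin.lt_def] at h2
        exact ih (par A i) (by omega) hb a h1

theorem IsElim.adh (hA : IsElim k A) {b i a : Fin n} (h : Sub A b i) (ha : a ∈ A i) :
    Sub A b a ∨ a ∈ A b := hA.adh_sub i i le_rfl h a ha

/-- two vertices in a common bag, one inside the subtree of `b`, the other outside: the other one
is in `A b` -/
theorem IsElim.cross (hA : IsElim k A) {b i j : Fin n} (hi : Sub A b i) (hj : ¬ Sub A b j)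
    (hij : i ∈ A j ∨ j ∈ A i) : j ∈ A b := by
  rcases hij with h | h
  · exact absurd (hi.trans (hA.mem_sub h)) hj
  · rcases hA.adh hi h with h' | h'
    · exact absurd h' hj
    · exact h'

/-- vertices in a common bag are adjacent in the elimination form -/
theorem IsElim.bag (hA : IsElim k A) {t i j : Fin n} (hi : i ∈ insert t (A t))
    (hj : j ∈ insert t (A t)) (hij : i ≠ j) : i ∈ A j ∨ j ∈ A i := by
  rcases mem_insert.mp hi with e | hi
  · rcases mem_insert.mp hj with e' | hj
    · exact absurd (e.trans e'.symm) hij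
    · rw [e]; exact Or.inr hj
  · rcases mem_insert.mp hj with e' | hj
    · rw [e']; exact Or.inl hi
    · rcases lt_or_gt_of_ne hij with h | h
      · exact Or.inl (hA.clique t i hi j hj h)
      · exact Or.inr (hA.clique t j hj i hi h)

theorem IsElim.not_sub_adh (hA : IsElim k A) {b a : Fin n} (ha : a ∈ A b) : ¬ Sub A b a := by
  intro h
  have h1 := hA.sub_le h
  have h2 := hA.lt b a ha
  exact absurd (h1.trans_lt h2) (lt_irrefl _)

end

/-- **Elimination form** of a connected graph of treewidth at most `k`. -/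
theorem exists_elim {V : Type} [Finite V] {G : SimpleGraph V} (hc : G.Connected) {k : ℕ}
    (hG : TreewidthLE G k) :
    ∃ (n : ℕ) (e : Fin n ≃ V) (A : Fin n → Finset (Fin n)), 0 < n ∧ IsElim k A ∧
      ∀ i j, G.Adj (e i) (e j) → i < j → i ∈ A j := by
  classical
  have := Fintype.ofFinite V
  have := hc.nonempty
  obtain ⟨rk, A, h1, h2, h3, h4, h5, h6⟩ := exists_rank hG
  let f : V → Fin (Fintype.card V) := fun x => ⟨rk x, h1 x⟩
  have hf : Function.Bijective f := by
    rw [Fintype.bijective_iff_injective_and_card]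
    refine ⟨fun x y hxy => h2 (by simpa [f] using hxy), by simp⟩
  let e : Fin (Fintype.card V) ≃ V := (Equiv.ofBijective f hf).symm
  have hfe : ∀ i, rk (e i) = (i : ℕ) := by
    intro i
    have : f (e i) = i := (Equiv.ofBijective f hf).apply_symm_apply i
    have h7 : ((f (e i) : Fin _) : ℕ) = (i : ℕ) := by rw [this]
    exact h7
  let A' : Fin (Fintype.card V) → Finset (Fin (Fintype.card V)) :=
    fun i => (A (e i)).map e.symm.toEmbedding
  have hmem : ∀ i j, j ∈ A' i ↔ e j ∈ A (e i) := by
    intro i j
    simp only [A', mem_map_equiv, Equiv.symm_symm]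
  have hlt : ∀ i, ∀ a ∈ A' i, a < i := by
    intro i a ha
    rw [hmem] at ha
    have := h3 _ _ ha
    rw [hfe, hfe] at this
    exact this
  have hcl : ∀ i, ∀ a ∈ A' i, ∀ b ∈ A' i, a < b → a ∈ A' b := by
    intro i a ha b hb hab
    rw [hmem] at ha hb ⊢
    exact h5 _ _ ha _ hb (by rw [hfe, hfe]; exact hab)
  have hadj : ∀ i j, G.Adj (e i) (e j) → i < j → i ∈ A' j := by
    intro i j hij hlt
    rw [hmem]
    exact h6 _ _ hij (by rw [hfe, hfe]; exact hlt)
  refine ⟨Fintype.card V, e, A', Fintype.card_pos, ⟨hlt, ?_, hcl, ?_⟩, hadj⟩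
  · intro i
    simp only [A', card_map]
    exact h4 _
  · -- connectedness
    intro i hi
    by_contra hne
    rw [not_nonempty_iff_eq_empty] at hne
    -- a weak elimination structure suffices here
    have key : ∀ (m : ℕ) (x : Fin (Fintype.card V)), (x : ℕ) ≤ m → Sub A' i x →
        ∀ a ∈ A' x, Sub A' i a := by
      intro m
      induction m with
      | zero =>
        intro x hx _ a ha
        have := hlt x a ha
        rw [Fin.lt_def] at this
        omega
      | succ m ih =>
        intro x hx hs a ha
        rcases hs.cases with rfl | hs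
        · rw [hne] at ha
          exact absurd ha (notMem_empty _)
        · rcases (le_par ha).eq_or_lt with h | h
          · rw [h]; exact hs
          · have h8 := hlt x _ (par_mem ⟨a, ha⟩)
            rw [Fin.lt_def] at h8
            exact ih (par A' x) (by omega) hs a (hcl x a ha _ (par_mem ⟨a, ha⟩) h)
    have key2 : ∀ (m : ℕ) (x : Fin (Fintype.card V)), (x : ℕ) ≤ m → ∀ a ∈ A' x, Sub A' a x := by
      intro m
      induction m with
      | zero =>
        intro x hx a ha
        have := hlt x a ha
        rw [Fin.lt_def] at this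
        omega
      | succ m ih =>
        intro x hx a ha
        rcases (le_par ha).eq_or_lt with h | h
        · exact ⟨1, by rw [Function.iterate_one]; exact h.symm⟩
        · have h8 := hlt x _ (par_mem ⟨a, ha⟩)
          rw [Fin.lt_def] at h8
          exact (ih (par A' x) (by omega) a (hcl x a ha _ (par_mem ⟨a, ha⟩) h)).step
    have hle : ∀ (m : ℕ) (x : Fin (Fintype.card V)), (par A')^[m] x ≤ x := by
      intro m
      induction m with
      | zero => intro x; exact le_rfl
      | succ m ih =>
        intro x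
        rw [Function.iterate_succ_apply]
        refine (ih _).trans ?_
        by_cases h : (A' x).Nonempty
        · exact (hlt x _ (par_mem h)).le
        · rw [par_of_empty h]
    have h0 : ¬ Sub A' i ⟨0, Fintype.card_pos⟩ := by
      rintro ⟨m, hm⟩
      have h9 := hle m ⟨0, Fintype.card_pos⟩
      rw [hm, Fin.le_def] at h9
      simp only at h9
      omega
    obtain ⟨w⟩ := hc (e i) (e ⟨0, Fintype.card_pos⟩)
    obtain ⟨dd, _, hd1, hd2⟩ := w.exists_boundary_dart {x | Sub A' i (e.symm x)}
      (by simpa using Sub.refl i) (by simpa using h0)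
    have hd1' : Sub A' i (e.symm dd.fst) := hd1
    have hd2' : ¬ Sub A' i (e.symm dd.snd) := hd2
    have hadj' : G.Adj (e (e.symm dd.fst)) (e (e.symm dd.snd)) := by
      rw [Equiv.apply_symm_apply, Equiv.apply_symm_apply]
      exact dd.adj
    rcases lt_trichotomy (e.symm dd.fst) (e.symm dd.snd) with h | h | h
    · have h10 := hadj _ _ hadj' h
      exact hd2' (hd1'.trans (key2 _ _ le_rfl _ h10))
    · exact hd2' (by rw [← h]; exact hd1')
    · have h10 := hadj _ _ hadj'.symm h
      exact hd2' (key _ _ le_rfl hd1' _ h10)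

end Vale.Agent.P235.H263
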