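import Vale.Agent.P235.H263.Elim2

/-! The path metric in elimination form: (SEP), positivity, domination by edges. -/

namespace Vale.Agent.P235.H263

open Finset

section

variable {V : Type} {G : SimpleGraph V} {ℓ : Sym2 V → ℝ}

theorem len_nonneg (hℓ : ∀ e ∈ G.edgeSet, 0 < ℓ e) {x y : V} (w : G.Walk x y) :
    0 ≤ (w.edges.map ℓ).sum := by
  apply List.sum_nonneg
  intro a ha
  rw [List.mem_map] at ha
  obtain ⟨e, he, rfl⟩ := ha
  exact (hℓ e (w.edges_subset_edgeSet he)).le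

theorem pd_bdd (hℓ : ∀ e ∈ G.edgeSet, 0 < ℓ e) (x y : V) :
    BddBelow (Set.range fun w : G.Walk x y => (w.edges.map ℓ).sum) := by
  refine ⟨0, ?_⟩
  rintro _ ⟨w, rfl⟩
  exact len_nonneg hℓ w

theorem pd_le (hℓ : ∀ e ∈ G.edgeSet, 0 < ℓ e) {x y : V} (w : G.Walk x y) :
    pathDist G ℓ x y ≤ (w.edges.map ℓ).sum := ciInf_le (pd_bdd hℓ x y) w

theorem pd_nonneg (hc : G.Connected) (hℓ : ∀ e ∈ G.edgeSet, 0 < ℓ e) (x y : V) :
    0 ≤ pathDist G ℓ x y := by
  have : Nonempty (G.Walk x y) := hc x y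
  exact le_ciInf fun w => len_nonneg hℓ w

theorem pd_self (hc : G.Connected) (hℓ : ∀ e ∈ G.edgeSet, 0 < ℓ e) (x : V) :
    pathDist G ℓ x x = 0 := by
  apply le_antisymm _ (pd_nonneg hc hℓ x x)
  have := pd_le hℓ (SimpleGraph.Walk.nil : G.Walk x x)
  simpa using this

theorem pd_symm (hc : G.Connected) (hℓ : ∀ e ∈ G.edgeSet, 0 < ℓ e) (x y : V) :
    pathDist G ℓ x y = pathDist G ℓ y x := by
  have key : ∀ a b : V, pathDist G ℓ a b ≤ pathDist G ℓ b a := by
    intro a b
    have : Nonempty (G.Walk b a) := hc b a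
    refine le_ciInf fun w => ?_
    refine (pd_le hℓ w.reverse).trans ?_
    rw [SimpleGraph.Walk.edges_reverse, List.map_reverse, List.sum_reverse]
  exact le_antisymm (key x y) (key y x)

theorem pd_tri (hc : G.Connected) (hℓ : ∀ e ∈ G.edgeSet, 0 < ℓ e) (x y z : V) :
    pathDist G ℓ x z ≤ pathDist G ℓ x y + pathDist G ℓ y z := by
  have : Nonempty (G.Walk x y) := hc x y
  have : Nonempty (G.Walk y z) := hc y z
  have h1 : ∀ w : G.Walk y z, pathDist G ℓ x z - (w.edges.map ℓ).sum ≤ pathDist G ℓ x y := by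
    intro w
    refine le_ciInf fun w' => ?_
    have := pd_le hℓ (w'.append w)
    rw [SimpleGraph.Walk.edges_append, List.map_append, List.sum_append] at this
    linarith only [this]
  have h2 : pathDist G ℓ x z - pathDist G ℓ x y ≤ pathDist G ℓ y z := by
    refine le_ciInf fun w => ?_
    linarith only [h1 w]
  linarith only [h2]

theorem pd_adj (hℓ : ∀ e ∈ G.edgeSet, 0 < ℓ e) {x y : V} (h : G.Adj x y) :
    pathDist G ℓ x y ≤ ℓ s(x, y) := by
  have := pd_le hℓ h.toWalk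
  simpa using this

/-- a pseudometric which is at most `c ℓ` on the edges is at most `c d` everywhere -/
theorem le_pd (hc : G.Connected) {ρ : V → V → ℝ} {c : ℝ} (hc0 : 0 ≤ c) (h0 : ∀ x, ρ x x ≤ 0)
    (ht : ∀ x y z, ρ x z ≤ ρ x y + ρ y z) (he : ∀ x y, G.Adj x y → ρ x y ≤ c * ℓ s(x, y))
    (x y : V) : ρ x y ≤ c * pathDist G ℓ x y := by
  have hw : ∀ {x y : V} (w : G.Walk x y), ρ x y ≤ c * (w.edges.map ℓ).sum := by
    intro x y w
    induction w with
    | nil => simpa using h0 _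
    | cons h p ih =>
      rw [SimpleGraph.Walk.edges_cons, List.map_cons, List.sum_cons, mul_add]
      exact (ht _ _ _).trans (add_le_add (he _ _ h) ih)
  have : Nonempty (G.Walk x y) := hc x y
  rcases hc0.eq_or_lt with h | h
  · obtain ⟨w⟩ := this
    have := hw w
    rw [← h, zero_mul] at this ⊢
    exact this
  · have h1 : ρ x y / c ≤ pathDist G ℓ x y := by
      refine le_ciInf fun w => ?_
      rw [div_le_iff₀ h, mul_comm]
      exact hw w
    rw [div_le_iff₀ h, mul_comm] at h1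
    exact h1

theorem pd_pos [Finite V] (hc : G.Connected) (hℓ : ∀ e ∈ G.edgeSet, 0 < ℓ e) {x y : V}
    (hxy : x ≠ y) : 0 < pathDist G ℓ x y := by
  classical
  have := Fintype.ofFinite V
  -- a positive lower bound of the edge lengths
  obtain ⟨m, hm, hml⟩ : ∃ m : ℝ, 0 < m ∧ ∀ e ∈ G.edgeSet, m ≤ ℓ e := by
    by_cases hE : (G.edgeFinset).Nonempty
    · obtain ⟨e, he, hmin⟩ := exists_min_image _ ℓ hE
      exact ⟨ℓ e, hℓ e (by simpa using he), fun e' he' => hmin e' (by simpa using he')⟩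
    · refine ⟨1, one_pos, fun e he => absurd ⟨e, by simpa using he⟩ hE⟩
  have : Nonempty (G.Walk x y) := hc x y
  refine lt_of_lt_of_le hm (le_ciInf fun w => ?_)
  cases w with
  | nil => exact absurd rfl hxy
  | cons h p =>
    rw [SimpleGraph.Walk.edges_cons, List.map_cons, List.sum_cons]
    have h1 := hml s(x, _) (by simpa using h)
    have h2 := len_nonneg hℓ p
    linarith only [h1, h2]

/-- metric separation from graph separation -/
theorem pd_sep (hc : G.Connected) (hℓ : ∀ e ∈ G.edgeSet, 0 < ℓ e) {x y : V} (S : Finset V)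
    (h : ∀ w : G.Walk x y, ∃ i ∈ S, i ∈ w.support) :
    ∃ i ∈ S, pathDist G ℓ x y = pathDist G ℓ x i + pathDist G ℓ i y := by
  classical
  obtain ⟨w0⟩ := hc x y
  obtain ⟨i0, hi0, _⟩ := h w0
  obtain ⟨m, hm, hmin⟩ := Finset.exists_min_image S
    (fun i => pathDist G ℓ x i + pathDist G ℓ i y) ⟨i0, hi0⟩
  refine ⟨m, hm, le_antisymm (pd_tri hc hℓ _ _ _) ?_⟩
  have : Nonempty (G.Walk x y) := hc x y
  refine le_ciInf fun w => ?_
  obtain ⟨i, hi, hiw⟩ := h w
  have h1 := hmin i hi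
  have h2 := pd_le hℓ (w.takeUntil i hiw)
  have h3 := pd_le hℓ (w.dropUntil i hiw)
  have h4 := w.take_spec hiw
  have h5 : (w.edges.map ℓ).sum = ((w.takeUntil i hiw).edges.map ℓ).sum
      + ((w.dropUntil i hiw).edges.map ℓ).sum := by
    conv_lhs => rw [← h4]
    rw [SimpleGraph.Walk.edges_append, List.map_append, List.sum_append]
  linarith only [h1, h2, h3, h5]

end

section

variable {V : Type} {G : SimpleGraph V} {ℓ : Sym2 V → ℝ} {n k : ℕ} {e : Fin n ≃ V}
  {A : Fin n → Finset (Fin n)}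

/-- every walk which leaves the subtree of `b` meets the adhesion of `b` -/
theorem IsElim.walk (hA : IsElim k A) (hG : ∀ i j, G.Adj (e i) (e j) → i < j → i ∈ A j)
    {b p q : Fin n} (hp : Sub A b p) (hq : ¬ Sub A b q) (w : G.Walk (e p) (e q)) :
    ∃ a ∈ A b, e a ∈ w.support := by
  obtain ⟨dd, hdw, hd1, hd2⟩ := w.exists_boundary_dart {x | Sub A b (e.symm x)}
    (by simpa using hp) (by simpa using hq)
  have hd1' : Sub A b (e.symm dd.fst) := hd1
  have hd2' : ¬ Sub A b (e.symm dd.snd) := hd2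
  have hadj' : G.Adj (e (e.symm dd.fst)) (e (e.symm dd.snd)) := by
    rw [Equiv.apply_symm_apply, Equiv.apply_symm_apply]
    exact dd.adj
  refine ⟨e.symm dd.snd, hA.cross hd1' hd2' ?_, ?_⟩
  · rcases lt_trichotomy (e.symm dd.fst) (e.symm dd.snd) with h | h | h
    · exact Or.inl (hG _ _ hadj' h)
    · exact absurd (by rw [← h]; exact hd1') hd2'
    · exact Or.inr (hG _ _ hadj'.symm h)
  · rw [Equiv.apply_symm_apply]
    exact w.dart_snd_mem_support_of_mem_darts hdw

/-- **(SEP)** for the path metric in elimination form -/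
theorem IsElim.sep (hA : IsElim k A) (hG : ∀ i j, G.Adj (e i) (e j) → i < j → i ∈ A j)
    (hc : G.Connected) (hℓ : ∀ e ∈ G.edgeSet, 0 < ℓ e)
    {b p q : Fin n} (hp : Sub A b p) (hq : ¬ Sub A b q) :
    ∃ a ∈ A b, pathDist G ℓ (e p) (e q) = pathDist G ℓ (e p) (e a) + pathDist G ℓ (e a) (e q) := by
  classical
  obtain ⟨i, hi, h⟩ := pd_sep hc hℓ ((A b).map e.toEmbedding)
    (x := e p) (y := e q) (fun w => by
      obtain ⟨a, ha, haw⟩ := hA.walk hG hp hq w
      exact ⟨e a, mem_map.mpr ⟨a, ha, rfl⟩, haw⟩)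
  obtain ⟨a, ha, rfl⟩ := mem_map.mp hi
  exact ⟨a, ha, h⟩

/-- a pseudometric dominated by `c d` on all pairs in a common bag is dominated everywhere -/
theorem IsElim.dominate (hG : ∀ i j, G.Adj (e i) (e j) → i < j → i ∈ A j)
    (hc : G.Connected) (hℓ : ∀ e ∈ G.edgeSet, 0 < ℓ e) {c : ℝ} (hc0 : 0 ≤ c)
    {ρ : Fin n → Fin n → ℝ} (h0 : ∀ i, ρ i i = 0) (hs : ∀ i j, ρ i j = ρ j i)
    (ht : ∀ i j l, ρ i l ≤ ρ i j + ρ j l)
    (hb : ∀ j, ∀ i ∈ A j, ρ i j ≤ c * pathDist G ℓ (e i) (e j)) (i j : Fin n) :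
    ρ i j ≤ c * pathDist G ℓ (e i) (e j) := by
  have h := le_pd (G := G) (ℓ := ℓ) hc (ρ := fun x y => ρ (e.symm x) (e.symm y)) hc0
    (fun x => (h0 _).le) (fun x y z => ht _ _ _) (by
      intro x y hxy
      have hxy' : G.Adj (e (e.symm x)) (e (e.symm y)) := by
        rw [Equiv.apply_symm_apply, Equiv.apply_symm_apply]
        exact hxy
      have h1 : pathDist G ℓ x y ≤ ℓ s(x, y) := pd_adj hℓ hxy
      rcases lt_trichotomy (e.symm x) (e.symm y) with h | h | h
      · have h2 := hb _ _ (hG _ _ hxy' h)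
        rw [Equiv.apply_symm_apply, Equiv.apply_symm_apply] at h2
        exact h2.trans (mul_le_mul_of_nonneg_left h1 hc0)
      · exact absurd (e.symm.injective h) hxy.ne
      · have h2 := hb _ _ (hG _ _ hxy'.symm h)
        rw [Equiv.apply_symm_apply, Equiv.apply_symm_apply, pd_symm hc hℓ] at h2
        rw [hs]
        exact h2.trans (mul_le_mul_of_nonneg_left h1 hc0)) (e i) (e j)
  beta_reduce at h
  rw [Equiv.symm_apply_apply, Equiv.symm_apply_apply] at h
  exact h

end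

end Vale.Agent.P235.H263
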